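import Vale.Agent.Lib.P154.GW.Tree
import Vale.Agent.Lib.P154.Neg.Main1
import Vale.Agent.Lib.P154.Chain.Final
import Vale.Agent.Lib.P154Q4.GWMain

/-!
Nonreconstruction at and below the Kesten-Stigum bound: the three-state Potts channel on `d`-ary
trees (all admissible eigenvalues) and on Poisson Galton-Watson trees (eigenvalue `lam >= -1/3`),
and the four-state ferromagnetic Potts channel on `d`-ary trees.
-/

open Filter Topology Vale.Agent.Lib.P154 in
/-- First part: `q = 3`, the Poisson(`d`) Galton-Watson tree, real `d > 0`, `-1/3 <= lam <= 1`,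
`d * lam^2 <= 1`: the data have total probability one, the sum defining `a_n` converges and
`a_n` tends to `0`. Second part: `q = 3`, the `d`-ary tree, integer `d >= 2`, `-1/2 <= lam`,
`d * lam^2 <= 1`: `a_n` tends to `0`. Third part: `q = 4`, the `d`-ary tree, integer `d >= 2`,
`0 <= lam`, `d * lam^2 <= 1`: `a_n` tends to `0`. Fourth part: `q = 4`, the Poisson(`d`) Galton-Watson
tree, real `d > 0`, `0 <= lam <= 5/7`, `d * lam^2 <= 1` (so every `lam >= 0` below the bound when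
`d >= 49/25`): total probability one, convergence of the sum and `a_n` tends to `0`. -/
theorem Vale.Agent.Results.P154.A_all.result :
    (∀ d lam : ℝ, 0 < d → -(1 / 3) ≤ lam → lam ≤ 1 → d * lam ^ 2 ≤ 1 →
      (∀ n, HasSum (gwProb 3 (poissonLaw d) lam n) 1) ∧
        (∀ n, Summable (gwTerm 3 (poissonLaw d) lam n)) ∧
        Tendsto (gwError 3 (poissonLaw d) lam) atTop (𝓝 0)) ∧
    (∀ (d : ℕ) (lam : ℝ), 2 ≤ d → -(1 / 2) ≤ lam → (d : ℝ) * lam ^ 2 ≤ 1 →
      Tendsto (reconError d 3 lam) atTop (𝓝 0)) ∧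
    (∀ (d : ℕ) (lam : ℝ), 2 ≤ d → 0 ≤ lam → (d : ℝ) * lam ^ 2 ≤ 1 →
      Tendsto (reconError d 4 lam) atTop (𝓝 0)) ∧
    (∀ d lam : ℝ, 0 < d → 0 ≤ lam → lam ≤ 5 / 7 → d * lam ^ 2 ≤ 1 →
      (∀ n, HasSum (gwProb 4 (poissonLaw d) lam n) 1) ∧
        (∀ n, Summable (gwTerm 4 (poissonLaw d) lam n)) ∧
        Tendsto (gwError 4 (poissonLaw d) lam) atTop (𝓝 0)) := by
  refine ⟨fun d lam hd h1 h2 hKS => ?_,
    fun d lam hd h1 hKS => Vale.Agent.Lib.P154.Chain.tendsto_reconError_all hd h1 hKS,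
    fun d lam hd h0 hKS => Vale.Agent.Lib.P154Q4.q4_dary hd h0 hKS,
    fun d lam hd h0 h1 hKS => Vale.Agent.Lib.P154Q4.q4_poisson hd h0 h1 hKS⟩
  rcases lt_or_ge lam 0 with h0 | h0
  · exact Neg.poisson_neg hd h1 h0 hKS
  · exact GW.poisson_main hd h0 h2 hKS
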