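import Vale.Agent.Lib.P154.GW.Tree
import Vale.Agent.Lib.P154.Neg.Main1

/-!
Nonreconstruction at and below the Kesten-Stigum bound for the three-state Potts channel with
eigenvalue `lam >= -1/3`, on Poisson Galton-Watson trees and on `d`-ary trees, for all `d`.
-/

open Filter Topology Vale.Agent.Lib.P154 in
/-- For `q = 3` and `-1/3 <= lam <= 1`: if `d * lam^2 <= 1` then the reconstruction quantity `a_n`
tends to `0`, on the Poisson(`d`) Galton-Watson tree for real `d > 0` (first part, which also says
that the data have total probability one and that the sum defining `a_n` converges) and on the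
`d`-ary tree for every integer `d >= 2` (second part). -/
theorem Vale.Agent.Results.P154.C_neg.result :
    (∀ d lam : ℝ, 0 < d → -(1 / 3) ≤ lam → lam ≤ 1 → d * lam ^ 2 ≤ 1 →
      (∀ n, HasSum (gwProb 3 (poissonLaw d) lam n) 1) ∧
        (∀ n, Summable (gwTerm 3 (poissonLaw d) lam n)) ∧
        Tendsto (gwError 3 (poissonLaw d) lam) atTop (𝓝 0)) ∧
    (∀ (d : ℕ) (lam : ℝ), 2 ≤ d → -(1 / 3) ≤ lam → (d : ℝ) * lam ^ 2 ≤ 1 →
      Tendsto (reconError d 3 lam) atTop (𝓝 0)) := by
  refine ⟨fun d lam hd h1 h2 hKS => ?_, fun d lam hd h1 hKS => ?_⟩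
  · rcases lt_or_ge lam 0 with h0 | h0
    · exact Neg.poisson_neg hd h1 h0 hKS
    · exact GW.poisson_main hd h0 h2 hKS
  · rcases lt_or_ge lam 0 with h0 | h0
    · exact Neg.dary_neg hd h1 h0 hKS
    · exact tendsto_reconError hd h0 hKS
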