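import Vale.Agent.Lib.P154Q4.Q4Main

/-!
Nonreconstruction at and below the Kesten-Stigum bound for the four-state ferromagnetic
Potts channel on every `d`-ary tree.
-/

open Filter Topology in
/-- For `q = 4`, every integer `d >= 2` and every `lam >= 0` with `d * lam^2 <= 1`, the
reconstruction quantity `a_n` on the rooted `d`-ary tree tends to `0`. -/
theorem Vale.Agent.Results.P154.C_q4.result (d : ℕ) (hd : 2 ≤ d) (lam : ℝ) (h0 : 0 ≤ lam)
    (hKS : (d : ℝ) * lam ^ 2 ≤ 1) :
    Tendsto (Vale.Agent.Lib.P154.reconError d 4 lam) atTop (𝓝 0) :=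
  Vale.Agent.Lib.P154Q4.q4_dary hd h0 hKS
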